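import Mathlib

/-!
Type rigidity, part 2: the real modulus decomposition of an invertible operator
of a finite dimensional real space.
-/

namespace Vale.Agent.P207.H493.TR

open Module Filter Topology

section growth

variable {G : Type*} [NormedAddCommGroup G] [NormedSpace ℂ G]

theorem growth (T : Module.End ℂ G) (μ : ℂ) : ∀ (k : ℕ) (y : G),
    ((T - algebraMap ℂ (Module.End ℂ G) μ) ^ k) y = 0 → ∀ r : ℝ, ‖μ‖ < r →
      ∃ C : ℝ, 0 ≤ C ∧ ∀ n : ℕ, ‖(T ^ n) y‖ ≤ C * r ^ n := by
  intro k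
  induction k with
  | zero =>
    intro y hy r hr
    have hy0 : y = 0 := by simpa using hy
    refine ⟨0, le_rfl, fun n => ?_⟩
    rw [hy0, map_zero, norm_zero, zero_mul]
  | succ k ih =>
    intro y hy r hr
    have hz : ((T - algebraMap ℂ (Module.End ℂ G) μ) ^ k)
        ((T - algebraMap ℂ (Module.End ℂ G) μ) y) = 0 := by
      rw [pow_succ] at hy
      exact hy
    obtain ⟨C, hC, h⟩ := ih _ hz r hr
    have hr0 : 0 < r := lt_of_le_of_lt (norm_nonneg _) hr
    have hd : 0 < r - ‖μ‖ := by linarith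
    refine ⟨‖y‖ + C / (r - ‖μ‖), by positivity, fun n => ?_⟩
    induction n with
    | zero =>
      simp only [pow_zero, mul_one]
      have : 0 ≤ C / (r - ‖μ‖) := by positivity
      change ‖y‖ ≤ _
      linarith
    | succ n ihn =>
      have e1 : (T ^ (n + 1)) y = μ • (T ^ n) y +
          (T ^ n) ((T - algebraMap ℂ (Module.End ℂ G) μ) y) := by
        rw [pow_succ]
        change (T ^ n) (T y) = _
        rw [LinearMap.sub_apply, map_sub, Module.algebraMap_end_apply, map_smul]
        abel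
      rw [e1]
      refine (norm_add_le _ _).trans ?_
      rw [norm_smul]
      have e2 := h n
      have e3 : ‖μ‖ * ‖(T ^ n) y‖ ≤ ‖μ‖ * ((‖y‖ + C / (r - ‖μ‖)) * r ^ n) :=
        mul_le_mul_of_nonneg_left ihn (norm_nonneg _)
      have e4 : C = (C / (r - ‖μ‖)) * (r - ‖μ‖) := by
        field_simp
      have e5 : 0 ≤ ‖y‖ * r ^ n * (r - ‖μ‖) := by positivity
      have e6 : C * r ^ n = (C / (r - ‖μ‖)) * r ^ n * (r - ‖μ‖) := by
        rw [mul_right_comm, ← e4]
      rw [pow_succ]
      nlinarith [e2, e3, e5, e6]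

end growth

variable {F : Type*} [NormedAddCommGroup F] [NormedSpace ℝ F]

/-- the space of vectors of two-sided exponential growth rate `w` -/
def gr (D : F ≃L[ℝ] F) (w : ℝ) : Submodule ℝ F where
  carrier := {x | ∀ ε : ℝ, 0 < ε → ∃ C : ℝ, 0 ≤ C ∧ ∀ n : ℕ,
    ‖(D ^ n) x‖ ≤ C * Real.exp ((w + ε) * n) ∧ ‖(D⁻¹ ^ n) x‖ ≤ C * Real.exp ((-w + ε) * n)}
  add_mem' := by
    intro x y hx hy ε hε
    obtain ⟨C, hC, h⟩ := hx ε hε
    obtain ⟨C', hC', h'⟩ := hy ε hε
    refine ⟨C + C', by positivity, fun n => ⟨?_, ?_⟩⟩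
    · rw [map_add, add_mul]
      exact (norm_add_le _ _).trans (add_le_add (h n).1 (h' n).1)
    · rw [map_add, add_mul]
      exact (norm_add_le _ _).trans (add_le_add (h n).2 (h' n).2)
  zero_mem' := by
    intro ε hε
    refine ⟨0, le_rfl, fun n => ⟨?_, ?_⟩⟩ <;> simp
  smul_mem' := by
    intro c x hx ε hε
    obtain ⟨C, hC, h⟩ := hx ε hε
    refine ⟨‖c‖ * C, by positivity, fun n => ⟨?_, ?_⟩⟩
    · rw [map_smul, norm_smul, mul_assoc]
      exact mul_le_mul_of_nonneg_left (h n).1 (norm_nonneg _)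
    · rw [map_smul, norm_smul, mul_assoc]
      exact mul_le_mul_of_nonneg_left (h n).2 (norm_nonneg _)

theorem mem_gr {D : F ≃L[ℝ] F} {w : ℝ} {x : F} : x ∈ gr D w ↔ ∀ ε : ℝ, 0 < ε →
    ∃ C : ℝ, 0 ≤ C ∧ ∀ n : ℕ,
    ‖(D ^ n) x‖ ≤ C * Real.exp ((w + ε) * n) ∧ ‖(D⁻¹ ^ n) x‖ ≤ C * Real.exp ((-w + ε) * n) :=
  Iff.rfl

/-- stability under commuting operators -/
theorem gr_comm {D : F ≃L[ℝ] F} {w : ℝ} (A : F ≃L[ℝ] F) (hA : A * D = D * A) {x : F}
    (hx : x ∈ gr D w) : A x ∈ gr D w := by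
  intro ε hε
  obtain ⟨C, hC, h⟩ := hx ε hε
  refine ⟨‖(A : F →L[ℝ] F)‖ * C, by positivity, fun n => ⟨?_, ?_⟩⟩
  · have hc : (D ^ n) (A x) = A ((D ^ n) x) := by
      have : D ^ n * A = A * D ^ n := ((show Commute A D from hA).pow_right n).symm
      exact congrArg (fun B : F ≃L[ℝ] F => B x) this
    rw [hc, mul_assoc]
    exact ((A : F →L[ℝ] F).le_opNorm _).trans
      (mul_le_mul_of_nonneg_left (h n).1 (norm_nonneg _))
  · have hc : (D⁻¹ ^ n) (A x) = A ((D⁻¹ ^ n) x) := by
      have : D⁻¹ ^ n * A = A * D⁻¹ ^ n :=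
        (((show Commute A D from hA).inv_right).pow_right n).symm
      exact congrArg (fun B : F ≃L[ℝ] F => B x) this
    rw [hc, mul_assoc]
    exact ((A : F →L[ℝ] F).le_opNorm _).trans
      (mul_le_mul_of_nonneg_left (h n).2 (norm_nonneg _))

/-- pointwise bounds on a finite dimensional subspace are uniform -/
theorem unif_bound [FiniteDimensional ℝ F] {V : Type*} [NormedAddCommGroup V] [NormedSpace ℝ V]
    (S : Submodule ℝ F) (T : ℕ → F →ₗ[ℝ] V) (g : ℕ → ℝ) (hg : ∀ n, 0 ≤ g n)
    (h : ∀ x ∈ S, ∃ C : ℝ, 0 ≤ C ∧ ∀ n, ‖T n x‖ ≤ C * g n) :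
    ∃ C : ℝ, 0 ≤ C ∧ ∀ n, ∀ x ∈ S, ‖T n x‖ ≤ C * g n * ‖x‖ := by
  let b := finBasis ℝ S
  choose! C hC hb using h
  let co : Fin (finrank ℝ S) → (S →L[ℝ] ℝ) := fun i => LinearMap.toContinuousLinearMap (b.coord i)
  refine ⟨∑ i, ‖co i‖ * C (b i), Finset.sum_nonneg fun i _ =>
    mul_nonneg (norm_nonneg (co i)) (hC _ (b i).2), fun n x hx => ?_⟩
  have hx' : x = ∑ i, (co i ⟨x, hx⟩) • ((b i : S) : F) := by
    have := congrArg (Subtype.val) (b.sum_repr ⟨x, hx⟩)
    rw [Submodule.coe_sum] at this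
    exact this.symm
  calc ‖T n x‖ = ‖∑ i, (co i ⟨x, hx⟩) • T n ((b i : S) : F)‖ := by
        conv_lhs => rw [hx']
        rw [map_sum]
        congr 1
        exact Finset.sum_congr rfl fun i _ => by rw [map_smul]
    _ ≤ ∑ i, ‖co i‖ * C (b i) * g n * ‖x‖ := by
        refine (norm_sum_le _ _).trans (Finset.sum_le_sum fun i _ => ?_)
        rw [norm_smul]
        have h1 : ‖co i ⟨x, hx⟩‖ ≤ ‖co i‖ * ‖x‖ := (co i).le_opNorm _
        have h2 := hb _ (b i).2 n
        have h3 : 0 ≤ C (b i) * g n := mul_nonneg (hC _ (b i).2) (hg n)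
        calc ‖co i ⟨x, hx⟩‖ * ‖T n (b i)‖ ≤ (‖co i‖ * ‖x‖) * (C (b i) * g n) := by
              gcongr
          _ = _ := by ring
    _ = _ := by
        rw [Finset.sum_mul, Finset.sum_mul]

theorem pow_inv_apply (D : F ≃L[ℝ] F) (n : ℕ) (x : F) : (D⁻¹ ^ n) ((D ^ n) x) = x := by
  have : D⁻¹ ^ n * D ^ n = 1 := by
    rw [inv_pow, inv_mul_cancel]
  exact congrArg (fun B : F ≃L[ℝ] F => B x) this

/-- directness of the growth decomposition -/
theorem gr_indep [FiniteDimensional ℝ F] (D : F ≃L[ℝ] F) : ∀ (W : Finset ℝ) (y : ℝ → F),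
    (∀ v ∈ W, y v ∈ gr D v) → ∑ v ∈ W, y v = 0 → ∀ v ∈ W, y v = 0 := by
  intro W
  induction W using Finset.induction_on_max with
  | empty =>
    intro y _ _ v hv
    simp at hv
  | insert a s hs ih =>
    intro y hy hsum
    have has : a ∉ s := fun h => lt_irrefl _ (hs a h)
    rw [Finset.sum_insert has] at hsum
    have ha : y a = 0 := by
      -- a uniform gap
      obtain ⟨m, hm, hm'⟩ : ∃ m : ℝ, m < a ∧ ∀ v ∈ s, v ≤ m := by
        rcases s.eq_empty_or_nonempty with h | h
        · exact ⟨a - 1, by linarith, by simp [h]⟩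
        · exact ⟨s.max' h, hs _ (s.max'_mem h), fun v hv => s.le_max' v hv⟩
      have hε : 0 < (a - m) / 4 := by linarith
      obtain ⟨C, hC, hb⟩ := unif_bound (gr D a)
        (fun n => (((D⁻¹ ^ n : F ≃L[ℝ] F) : F →L[ℝ] F) : F →ₗ[ℝ] F))
        (fun n => Real.exp ((-a + (a - m) / 4) * n)) (fun n => (Real.exp_pos _).le)
        (fun x hx => by
          obtain ⟨C, hC, h⟩ := hx _ hε
          exact ⟨C, hC, fun n => (h n).2⟩)
      have hch : ∀ v ∈ s, ∃ C : ℝ, 0 ≤ C ∧ ∀ n : ℕ,
          ‖(D ^ n) (y v)‖ ≤ C * Real.exp ((m + (a - m) / 4) * n) := by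
        intro v hv
        obtain ⟨C, hC, h⟩ := hy v (Finset.mem_insert_of_mem hv) _ hε
        refine ⟨C, hC, fun n => (h n).1.trans ?_⟩
        refine mul_le_mul_of_nonneg_left (Real.exp_le_exp.2 ?_) hC
        have := hm' v hv
        have hn : (0 : ℝ) ≤ n := Nat.cast_nonneg n
        nlinarith
      choose! Cv hCv hbv using hch
      have hDa : ∀ n : ℕ, ‖(D ^ n) (y a)‖ ≤ (∑ v ∈ s, Cv v) *
          Real.exp ((m + (a - m) / 4) * n) := by
        intro n
        have e : y a = - ∑ v ∈ s, y v := eq_neg_of_add_eq_zero_left hsum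
        rw [e, map_neg, norm_neg, map_sum, Finset.sum_mul]
        exact (norm_sum_le _ _).trans (Finset.sum_le_sum fun v hv => hbv v hv n)
      have hlow : ∀ n : ℕ, ‖y a‖ ≤ C * (∑ v ∈ s, Cv v) *
          Real.exp (-((a - m) / 2) * n) := by
        intro n
        have hmem : (D ^ n) (y a) ∈ gr D a :=
          gr_comm (D ^ n) (by rw [← pow_succ, ← pow_succ']) (hy a (Finset.mem_insert_self _ _))
        have h1 := hb n _ hmem
        have h2 : (((D⁻¹ ^ n : F ≃L[ℝ] F) : F →L[ℝ] F) : F →ₗ[ℝ] F) ((D ^ n) (y a)) = y a :=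
          pow_inv_apply D n (y a)
        rw [h2] at h1
        refine h1.trans ?_
        refine (mul_le_mul_of_nonneg_left (hDa n)
          (mul_nonneg hC (Real.exp_pos _).le)).trans (le_of_eq ?_)
        have h3 : Real.exp ((-a + (a - m) / 4) * n) * Real.exp ((m + (a - m) / 4) * n) =
            Real.exp (-((a - m) / 2) * n) := by
          rw [← Real.exp_add]
          congr 1
          ring
        rw [← h3]
        ring
      have htend : Tendsto (fun n : ℕ => C * (∑ v ∈ s, Cv v) *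
          Real.exp (-((a - m) / 2) * n)) atTop (𝓝 0) := by
        have h1 : Tendsto (fun n : ℕ => (-((a - m) / 2)) * (n : ℝ)) atTop atBot :=
          (tendsto_natCast_atTop_atTop).const_mul_atTop_of_neg (by linarith)
        have h2 := Real.tendsto_exp_atBot.comp h1
        have h3 := h2.const_mul (C * (∑ v ∈ s, Cv v))
        rw [mul_zero] at h3
        exact h3
      exact norm_le_zero_iff.1 (ge_of_tendsto' htend hlow)
    rw [ha, zero_add] at hsum
    have := ih y (fun v hv => hy v (Finset.mem_insert_of_mem hv)) hsum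
    intro v hv
    rcases Finset.mem_insert.1 hv with h | h
    · rw [h]
      exact ha
    · exact this v h

/-- coordinates of a vector of growth `w` in a basis of growth vectors -/
theorem repr_eq_zero_of_gr [FiniteDimensional ℝ F] {D : F ≃L[ℝ] F} {κ : Type} [Finite κ]
    (c : Basis κ ℝ F) {u : κ → ℝ} (hc : ∀ j, c j ∈ gr D (u j)) {w : ℝ} {x : F} (hx : x ∈ gr D w)
    {j : κ} (hj : u j ≠ w) : c.repr x j = 0 := by
  classical
  have := Fintype.ofFinite κ
  let y : ℝ → F := fun v => (∑ i, if u i = v then c.repr x i • c i else 0) - if v = w then x else 0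
  have hy : ∀ v ∈ insert w (Finset.univ.image u), y v ∈ gr D v := by
    intro v _
    refine Submodule.sub_mem _ (Submodule.sum_mem _ fun i _ => ?_) ?_
    · by_cases h : u i = v
      · rw [if_pos h]
        exact Submodule.smul_mem _ _ (h ▸ hc i)
      · rw [if_neg h]
        exact Submodule.zero_mem _
    · by_cases h : v = w
      · rw [if_pos h, h]
        exact hx
      · rw [if_neg h]
        exact Submodule.zero_mem _
  have hsum : ∑ v ∈ insert w (Finset.univ.image u), y v = 0 := by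
    simp only [y]
    rw [Finset.sum_sub_distrib, Finset.sum_comm]
    have e1 : ∀ i ∈ (Finset.univ : Finset κ), (∑ v ∈ insert w (Finset.univ.image u),
        if u i = v then c.repr x i • c i else 0) = c.repr x i • c i := by
      intro i _
      rw [Finset.sum_ite_eq, if_pos]
      exact Finset.mem_insert_of_mem (Finset.mem_image_of_mem _ (Finset.mem_univ _))
    rw [Finset.sum_congr rfl e1, c.sum_repr, Finset.sum_ite_eq', if_pos, sub_self]
    exact Finset.mem_insert_self _ _
  have h0 := gr_indep D _ y hy hsum (u j)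
    (Finset.mem_insert_of_mem (Finset.mem_image_of_mem _ (Finset.mem_univ _)))
  simp only [y, if_neg hj, sub_zero] at h0
  have h1 : c.repr (∑ i, if u i = u j then c.repr x i • c i else 0) j = c.repr x j := by
    rw [map_sum, Finsupp.finsetSum_apply, Finset.sum_eq_single j]
    · rw [if_pos rfl, map_smul]
      simp
    · intro i _ hij
      by_cases h : u i = u j
      · rw [if_pos h, map_smul]
        simp [hij]
      · rw [if_neg h]
        simp
    · intro h
      exact absurd (Finset.mem_univ _) h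
  rw [h0, map_zero] at h1
  exact h1.symm

section span

variable {d : ℕ}

/-- real part of complex coordinates -/
noncomputable def reC (e : F ≃L[ℝ] (Fin d → ℝ)) (y : Fin d → ℂ) : F := e.symm fun k => (y k).re

noncomputable def imC (e : F ≃L[ℝ] (Fin d → ℝ)) (y : Fin d → ℂ) : F := e.symm fun k => (y k).im

/-- complexification of an operator in coordinates -/
noncomputable def cx (e : F ≃L[ℝ] (Fin d → ℝ)) (A : F →L[ℝ] F) : Module.End ℂ (Fin d → ℂ) where
  toFun y := fun k => (e (A (reC e y)) k : ℂ) + (e (A (imC e y)) k : ℂ) * Complex.I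
  map_add' y y' := by
    have h1 : reC e (y + y') = reC e y + reC e y' := by
      rw [reC, reC, reC, ← map_add]
      rfl
    have h2 : imC e (y + y') = imC e y + imC e y' := by
      rw [imC, imC, imC, ← map_add]
      rfl
    funext k
    simp only [h1, h2, map_add, Pi.add_apply, Complex.ofReal_add]
    ring
  map_smul' c y := by
    have h1 : reC e (c • y) = c.re • reC e y - c.im • imC e y := by
      rw [reC, reC, imC, ← map_smul, ← map_smul, ← map_sub]
      congr 1
    have h2 : imC e (c • y) = c.re • imC e y + c.im • reC e y := by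
      rw [reC, imC, imC, ← map_smul, ← map_smul, ← map_add]
      congr 1
    funext k
    simp only [h1, h2, map_add, map_sub, map_smul, Pi.add_apply, Pi.sub_apply, Pi.smul_apply,
      smul_eq_mul, Complex.ofReal_add, Complex.ofReal_sub, Complex.ofReal_mul, RingHom.id_apply]
    apply Complex.ext
    · simp
    · simp

theorem reC_cx (e : F ≃L[ℝ] (Fin d → ℝ)) (A : F →L[ℝ] F) (y : Fin d → ℂ) :
    reC e (cx e A y) = A (reC e y) := by
  rw [reC, ContinuousLinearEquiv.symm_apply_eq]
  funext k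
  simp [cx]

theorem imC_cx (e : F ≃L[ℝ] (Fin d → ℝ)) (A : F →L[ℝ] F) (y : Fin d → ℂ) :
    imC e (cx e A y) = A (imC e y) := by
  rw [imC, ContinuousLinearEquiv.symm_apply_eq]
  funext k
  simp [cx]

theorem ext_C (e : F ≃L[ℝ] (Fin d → ℝ)) {y y' : Fin d → ℂ} (h1 : reC e y = reC e y')
    (h2 : imC e y = imC e y') : y = y' := by
  have h1' := congrArg e h1
  have h2' := congrArg e h2
  simp only [reC, imC, ContinuousLinearEquiv.apply_symm_apply] at h1' h2'
  funext k
  exact Complex.ext (congrFun h1' k) (congrFun h2' k)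

theorem cx_mul (e : F ≃L[ℝ] (Fin d → ℝ)) (A B : F →L[ℝ] F) :
    cx e (A ∘L B) = cx e A * cx e B := by
  refine LinearMap.ext fun z => ext_C e ?_ ?_
  · rw [reC_cx]
    change A (B _) = reC e (cx e A (cx e B _))
    rw [reC_cx, reC_cx]
  · rw [imC_cx]
    change A (B _) = imC e (cx e A (cx e B _))
    rw [imC_cx, imC_cx]

theorem norm_reC_le (e : F ≃L[ℝ] (Fin d → ℝ)) (y : Fin d → ℂ) :
    ‖reC e y‖ ≤ ‖(e.symm : (Fin d → ℝ) →L[ℝ] F)‖ * ‖y‖ := by
  refine ((e.symm : (Fin d → ℝ) →L[ℝ] F).le_opNorm _).trans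
    (mul_le_mul_of_nonneg_left ?_ (norm_nonneg _))
  rw [pi_norm_le_iff_of_nonneg (norm_nonneg _)]
  intro k
  rw [Real.norm_eq_abs]
  exact (Complex.abs_re_le_norm _).trans (norm_le_pi_norm y k)

theorem cx_one (e : F ≃L[ℝ] (Fin d → ℝ)) : cx e (ContinuousLinearMap.id ℝ F) = 1 := by
  refine LinearMap.ext fun z => ext_C e ?_ ?_
  · rw [reC_cx]
    rfl
  · rw [imC_cx]
    rfl

theorem reC_cx_pow (e : F ≃L[ℝ] (Fin d → ℝ)) (D : F ≃L[ℝ] F) (n : ℕ) (y : Fin d → ℂ) :
    reC e ((cx e (D : F →L[ℝ] F) ^ n) y) = (D ^ n) (reC e y) := by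
  induction n with
  | zero => rfl
  | succ n ih =>
    rw [pow_succ', pow_succ']
    change reC e (cx e (D : F →L[ℝ] F) ((cx e (D : F →L[ℝ] F) ^ n) y)) = D ((D ^ n) (reC e y))
    rw [reC_cx, ih]
    rfl

/-- the real part of a generalised eigenvector is a vector of growth `log |μ|` -/
theorem reC_mem_gr (e : F ≃L[ℝ] (Fin d → ℝ)) (D : F ≃L[ℝ] F) (μ : ℂ) (k : ℕ) (y : Fin d → ℂ)
    (hμ : μ ≠ 0)
    (hy : ((cx e (D : F →L[ℝ] F) - algebraMap ℂ (Module.End ℂ (Fin d → ℂ)) μ) ^ k) y = 0) :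
    reC e y ∈ gr D (Real.log ‖μ‖) := by
  have hμ' : 0 < ‖μ‖ := norm_pos_iff.2 hμ
  set T := cx e (D : F →L[ℝ] F) with hT
  set T' := cx e ((D⁻¹ : F ≃L[ℝ] F) : F →L[ℝ] F) with hT'
  have hTT' : T * T' = 1 := by
    rw [hT, hT', ← cx_mul, ← cx_one e]
    congr 1
    ext x
    exact D.apply_symm_apply x
  have hT'T : T' * T = 1 := by
    rw [hT, hT', ← cx_mul, ← cx_one e]
    congr 1
    ext x
    exact D.symm_apply_apply x
  have hy' : ((T' - algebraMap ℂ (Module.End ℂ (Fin d → ℂ)) μ⁻¹) ^ k) y = 0 := by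
    have hfac : T' - algebraMap ℂ (Module.End ℂ (Fin d → ℂ)) μ⁻¹ =
        (-(μ⁻¹ • T')) * (T - algebraMap ℂ (Module.End ℂ (Fin d → ℂ)) μ) := by
      refine LinearMap.ext fun z => ?_
      have hz : T' (T z) = z := congrArg (fun B : Module.End ℂ (Fin d → ℂ) => B z) hT'T
      change T' z - μ⁻¹ • z = -(μ⁻¹ • T' (T z - μ • z))
      rw [map_sub, map_smul, hz, smul_sub, smul_smul, inv_mul_cancel₀ hμ, one_smul]
      abel
    have hcomm : Commute (-(μ⁻¹ • T')) (T - algebraMap ℂ (Module.End ℂ (Fin d → ℂ)) μ) := by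
      refine Commute.neg_left (Commute.smul_left (Commute.sub_right ?_ ?_) _)
      · change T' * T = T * T'
        rw [hT'T, hTT']
      · exact (Algebra.commutes μ T').symm
    rw [hfac, hcomm.mul_pow]
    change ((-(μ⁻¹ • T')) ^ k) (((T - algebraMap ℂ (Module.End ℂ (Fin d → ℂ)) μ) ^ k) y) = 0
    rw [hy, map_zero]
  have hpow : ∀ n : ℕ, reC e ((T ^ n) y) = (D ^ n) (reC e y) := fun n => reC_cx_pow e D n y
  have hpow' : ∀ n : ℕ, reC e ((T' ^ n) y) = (D⁻¹ ^ n) (reC e y) :=
    fun n => reC_cx_pow e D⁻¹ n y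
  intro ε hε
  obtain ⟨C, hC, h⟩ := growth T μ k y hy (Real.exp (Real.log ‖μ‖ + ε)) (by
    rw [Real.exp_add, Real.exp_log hμ']
    have := Real.add_one_lt_exp hε.ne'
    nlinarith)
  obtain ⟨C', hC', h'⟩ := growth T' μ⁻¹ k y hy' (Real.exp (-Real.log ‖μ‖ + ε)) (by
    rw [Real.exp_add, Real.exp_neg, Real.exp_log hμ', norm_inv]
    have := Real.add_one_lt_exp hε.ne'
    have h3 : 0 < ‖μ‖⁻¹ := by positivity
    nlinarith)
  refine ⟨‖(e.symm : (Fin d → ℝ) →L[ℝ] F)‖ * (C + C'), by positivity, fun n => ⟨?_, ?_⟩⟩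
  · rw [← hpow n]
    refine (norm_reC_le e _).trans ?_
    rw [mul_assoc]
    refine mul_le_mul_of_nonneg_left ((h n).trans ?_) (norm_nonneg _)
    rw [← Real.exp_nat_mul, mul_comm (n : ℝ)]
    exact mul_le_mul_of_nonneg_right (by linarith) (Real.exp_pos _).le
  · rw [← hpow' n]
    refine (norm_reC_le e _).trans ?_
    rw [mul_assoc]
    refine mul_le_mul_of_nonneg_left ((h' n).trans ?_) (norm_nonneg _)
    rw [← Real.exp_nat_mul, mul_comm (n : ℝ)]
    exact mul_le_mul_of_nonneg_right (by linarith) (Real.exp_pos _).le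

end span

/-- the growth spaces span -/
theorem iSup_gr [FiniteDimensional ℝ F] (D : F ≃L[ℝ] F) : ⨆ w, gr D w = ⊤ := by
  rw [eq_top_iff]
  intro x _
  let e : F ≃L[ℝ] (Fin (finrank ℝ F) → ℝ) := (finBasis ℝ F).equivFunL
  let T := cx e (D : F →L[ℝ] F)
  let T' := cx e ((D⁻¹ : F ≃L[ℝ] F) : F →L[ℝ] F)
  have hT'T : T' * T = 1 := by
    rw [← cx_mul, ← cx_one e]
    congr 1
    ext x
    exact D.symm_apply_apply x
  have key : ∀ y : Fin (finrank ℝ F) → ℂ, y ∈ ⨆ μ : ℂ, T.maxGenEigenspace μ →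
      reC e y ∈ ⨆ w, gr D w := by
    intro y hy
    induction hy using Submodule.iSup_induction' with
    | mem μ y hy =>
      rw [Module.End.mem_maxGenEigenspace] at hy
      obtain ⟨k, hk⟩ := hy
      by_cases hμ : μ = 0
      · have hk' : (T ^ k) y = 0 := by
          have : (T - μ • (1 : Module.End ℂ (Fin (finrank ℝ F) → ℂ))) = T := by
            rw [hμ, zero_smul, sub_zero]
          rw [this] at hk
          exact hk
        have hc : Commute T' T := by
          have hTT' : T * T' = 1 := by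
            rw [← cx_mul, ← cx_one e]
            congr 1
            ext x
            exact D.apply_symm_apply x
          change T' * T = T * T'
          rw [hT'T, hTT']
        have h1 : (T' ^ k) ((T ^ k) y) = y := by
          have : T' ^ k * T ^ k = 1 := by
            rw [← hc.mul_pow, hT'T, one_pow]
          exact congrArg (fun B : Module.End ℂ (Fin (finrank ℝ F) → ℂ) => B y) this
        rw [hk', map_zero] at h1
        rw [← h1]
        have : reC e 0 = 0 := by
          rw [reC]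
          have : (fun k => ((0 : Fin (finrank ℝ F) → ℂ) k).re) = 0 := by
            funext k
            simp
          rw [this, map_zero]
        rw [this]
        exact Submodule.zero_mem _
      · refine Submodule.mem_iSup_of_mem (Real.log ‖μ‖) (reC_mem_gr e D μ k y hμ ?_)
        rw [Algebra.algebraMap_eq_smul_one]
        exact hk
    | zero =>
      have : reC e 0 = 0 := by
        rw [reC]
        have : (fun k => ((0 : Fin (finrank ℝ F) → ℂ) k).re) = 0 := by
          funext k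
          simp
        rw [this, map_zero]
      rw [this]
      exact Submodule.zero_mem _
    | add y y' _ _ h h' =>
      have : reC e (y + y') = reC e y + reC e y' := by
        rw [reC, reC, reC, ← map_add]
        rfl
      rw [this]
      exact Submodule.add_mem _ h h'
  have htop : (⨆ μ : ℂ, T.maxGenEigenspace μ) = ⊤ := Module.End.iSup_maxGenEigenspace_eq_top T
  have hx : reC e (fun k => ((e x k : ℝ) : ℂ)) = x := by
    rw [reC, ContinuousLinearEquiv.symm_apply_eq]
    funext k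
    simp
  rw [← hx]
  exact key _ (htop ▸ Submodule.mem_top)

/-- a basis of growth vectors -/
theorem exists_gr_basis [FiniteDimensional ℝ F] (D : F ≃L[ℝ] F) :
    ∃ (ι : Type) (_ : Finite ι) (b : Basis ι ℝ F) (w : ι → ℝ), ∀ i, b i ∈ gr D (w i) := by
  have hspan : Submodule.span ℝ (⋃ w, (gr D w : Set F)) = ⊤ := by
    rw [Submodule.span_iUnion]
    simp only [Submodule.span_eq]
    exact iSup_gr D
  obtain ⟨B, hB, hB2, hB3⟩ := exists_linearIndependent ℝ (⋃ w, (gr D w : Set F))
  have hfin : B.Finite := hB3.setFinite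
  let b0 : Basis B ℝ F := Basis.mk hB3 (by
    rw [Subtype.range_coe, hB2, hspan])
  have hmem : ∀ i : B, ∃ w, b0 i ∈ gr D w := by
    intro i
    have := hB i.2
    rw [Set.mem_iUnion] at this
    rw [Basis.mk_apply]
    exact this
  choose w hw using hmem
  have : Fintype B := hfin.fintype
  let σ : B ≃ Fin (Fintype.card B) := Fintype.equivFin B
  exact ⟨Fin (Fintype.card B), inferInstance, b0.reindex σ, fun j => w (σ.symm j), fun j => by
    rw [Basis.reindex_apply]
    exact hw _⟩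

end Vale.Agent.P207.H493.TR
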