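import Mathlib

/-!
Type rigidity, part 1: a family of linear maps of constant rank has a closed family of images;
upper semicontinuity of the dimension of a closed family of subspaces.
-/

namespace Vale.Agent.P207.H493.TR

open Module Filter Topology

variable {G Y : Type*} [NormedAddCommGroup G] [NormedSpace ℝ G] [FiniteDimensional ℝ G]
  [NormedAddCommGroup Y] [NormedSpace ℝ Y] [FiniteDimensional ℝ Y]

/-- a linear map injective on a subspace is bounded below there, stably -/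
theorem bdd_below_near (A₀ : G →L[ℝ] Y) (K : Submodule ℝ G)
    (hK : ∀ x ∈ K, A₀ x = 0 → x = 0) :
    ∃ c : ℝ, 0 < c ∧ ∀ A : G →L[ℝ] Y, ‖A - A₀‖ ≤ c → ∀ x ∈ K, c * ‖x‖ ≤ ‖A x‖ := by
  have hinj : Function.Injective (A₀.comp K.subtypeL) := by
    rw [injective_iff_map_eq_zero]
    intro x hx
    have := hK x.1 x.2 hx
    exact Subtype.ext this
  obtain ⟨c, hc, h⟩ := LinearMap.exists_antilipschitzWith
    ((A₀.comp K.subtypeL : K →L[ℝ] Y) : K →ₗ[ℝ] Y) (LinearMap.ker_eq_bot.2 hinj)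
  refine ⟨(c : ℝ)⁻¹ / 2, by positivity, fun A hA x hx => ?_⟩
  have h1 := h.le_mul_dist (⟨x, hx⟩ : K) 0
  simp only [dist_zero_right, map_zero] at h1
  have h2 : ‖x‖ ≤ c * ‖A₀ x‖ := h1
  have h3 : ‖A₀ x‖ ≤ ‖A x‖ + ‖A - A₀‖ * ‖x‖ := by
    have : A₀ x = A x - (A - A₀) x := by simp
    rw [this]
    refine (norm_sub_le _ _).trans ?_
    gcongr
    exact (A - A₀).le_opNorm x
  have h4 : (c : ℝ)⁻¹ * ‖x‖ ≤ ‖A₀ x‖ := by
    rw [inv_mul_le_iff₀ (by positivity)]
    exact h2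
  have h5 : ‖A - A₀‖ * ‖x‖ ≤ (c : ℝ)⁻¹ / 2 * ‖x‖ := by gcongr
  linarith

/-- limits of points of the images stay in the image, if the rank does not drop at the limit -/
theorem mem_range_of_tendsto {A : ℕ → G →L[ℝ] Y} {A₀ : G →L[ℝ] Y}
    (hA : Tendsto A atTop (𝓝 A₀))
    (hr : ∀ n, finrank ℝ (LinearMap.range (A n : G →ₗ[ℝ] Y)) ≤
      finrank ℝ (LinearMap.range (A₀ : G →ₗ[ℝ] Y)))
    {y : ℕ → Y} {y₀ : Y} (hy : Tendsto y atTop (𝓝 y₀))
    (hm : ∀ n, y n ∈ LinearMap.range (A n : G →ₗ[ℝ] Y)) :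
    y₀ ∈ LinearMap.range (A₀ : G →ₗ[ℝ] Y) := by
  obtain ⟨K, hK⟩ := (LinearMap.ker (A₀ : G →ₗ[ℝ] Y)).exists_isCompl
  have hK0 : ∀ x ∈ K, A₀ x = 0 → x = 0 := fun x hx h0 => by
    have : x ∈ LinearMap.ker (A₀ : G →ₗ[ℝ] Y) ⊓ K := ⟨h0, hx⟩
    rwa [hK.inf_eq_bot, Submodule.mem_bot] at this
  have hdimK : finrank ℝ K = finrank ℝ (LinearMap.range (A₀ : G →ₗ[ℝ] Y)) := by
    have e1 := LinearMap.finrank_range_add_finrank_ker (A₀ : G →ₗ[ℝ] Y)
    have e2 := Submodule.finrank_add_eq_of_isCompl hK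
    omega
  obtain ⟨c, hc, hb⟩ := bdd_below_near A₀ K hK0
  have hev : ∀ᶠ n in atTop, ‖A n - A₀‖ ≤ c := by
    have := (tendsto_iff_norm_sub_tendsto_zero.1 hA).eventually (gt_mem_nhds hc)
    exact this.mono fun n hn => hn.le
  -- eventually the image is the image of K
  have hmem : ∀ᶠ n in atTop, ∃ k ∈ K, A n k = y n := by
    filter_upwards [hev] with n hn
    have hle : K.map (A n : G →ₗ[ℝ] Y) ≤ LinearMap.range (A n : G →ₗ[ℝ] Y) :=
      LinearMap.map_le_range
    have hinj : Set.InjOn (A n : G →ₗ[ℝ] Y) K := by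
      intro x hx x' hx' hxx
      have h1 := hb (A n) hn (x - x') (K.sub_mem hx hx')
      have h2 : A n (x - x') = 0 := by
        rw [map_sub, sub_eq_zero]
        exact hxx
      rw [h2, norm_zero] at h1
      have h3 : ‖x - x'‖ ≤ 0 := by
        by_contra hcon
        push Not at hcon
        have := mul_pos hc hcon
        linarith
      exact sub_eq_zero.1 (norm_le_zero_iff.1 h3)
    have hd : finrank ℝ (K.map (A n : G →ₗ[ℝ] Y)) = finrank ℝ K := by
      have hi : Function.Injective ((A n : G →ₗ[ℝ] Y).domRestrict K) := by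
        intro x x' hxx
        exact Subtype.ext (hinj x.2 x'.2 hxx)
      have e := LinearMap.finrank_range_of_inj hi
      rw [LinearMap.range_domRestrict] at e
      exact e
    have heq : K.map (A n : G →ₗ[ℝ] Y) = LinearMap.range (A n : G →ₗ[ℝ] Y) := by
      refine Submodule.eq_of_le_of_finrank_le hle ?_
      rw [hd, hdimK]
      exact hr n
    have := hm n
    rw [← heq] at this
    obtain ⟨k, hk, hk'⟩ := this
    exact ⟨k, hk, hk'⟩
  -- choose k n
  obtain ⟨N, hN⟩ := (hmem.and hev).exists_forall_of_atTop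
  choose! k hk using fun n (hn : N ≤ n) => (hN n hn).1
  -- bounded
  have hbd : ∃ R, ∀ n, N ≤ n → ‖k n‖ ≤ R := by
    obtain ⟨R, hR⟩ := (Metric.isBounded_range_of_tendsto y hy).exists_norm_le
    refine ⟨c⁻¹ * R, fun n hn => ?_⟩
    have h1 := hb (A n) (hN n hn).2 (k n) (hk n hn).1
    rw [(hk n hn).2] at h1
    have h2 := hR (y n) ⟨n, rfl⟩
    rw [← div_eq_inv_mul, le_div_iff₀ hc, mul_comm]
    linarith
  obtain ⟨R, hR⟩ := hbd
  have hcomp : IsCompact (Metric.closedBall (0 : G) R) := isCompact_closedBall _ _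
  obtain ⟨k₀, -, φ, hφ, hlim⟩ := hcomp.tendsto_subseq (x := fun n => k (n + N)) (fun n => by
    rw [mem_closedBall_zero_iff]
    exact hR _ (Nat.le_add_left _ _))
  refine ⟨k₀, ?_⟩
  have hsh : Tendsto (fun n => φ n + N) atTop atTop :=
    (tendsto_add_atTop_nat N).comp hφ.tendsto_atTop
  have t1 : Tendsto (fun n => A (φ n + N) (k (φ n + N))) atTop (𝓝 (A₀ k₀)) := by
    have hA' := hA.comp hsh
    have : Tendsto (fun n => ((A (φ n + N)), (k (φ n + N)))) atTop (𝓝 (A₀, k₀)) :=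
      hA'.prodMk_nhds hlim
    exact (isBoundedBilinearMap_apply.continuous.tendsto (A₀, k₀)).comp this
  have t2 : Tendsto (fun n => A (φ n + N) (k (φ n + N))) atTop (𝓝 y₀) := by
    have : (fun n => A (φ n + N) (k (φ n + N))) = fun n => y (φ n + N) := by
      funext n
      exact (hk _ (Nat.le_add_left _ _)).2
    rw [this]
    exact hy.comp hsh
  exact tendsto_nhds_unique t1 t2

/-- upper semicontinuity of the dimension of a closed family of subspaces -/
theorem finrank_usc {K : ℕ → Submodule ℝ G} {K₀ : Submodule ℝ G}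
    (h : ∀ (φ : ℕ → ℕ), Tendsto φ atTop atTop → ∀ (Z : ℕ → G) (Z₀ : G), (∀ n, Z n ∈ K (φ n)) →
      Tendsto Z atTop (𝓝 Z₀) → Z₀ ∈ K₀) :
    ∀ᶠ n in atTop, finrank ℝ (K n) ≤ finrank ℝ K₀ := by
  obtain ⟨Q, hQ⟩ := K₀.exists_isCompl
  -- eventually K n ⊓ Q = ⊥
  have hbot : ∀ᶠ n in atTop, K n ⊓ Q = ⊥ := by
    by_contra hcon
    rw [not_eventually] at hcon
    obtain ⟨φ, hφ, hφ'⟩ := Filter.extraction_of_frequently_atTop hcon
    have hex : ∀ n, ∃ z : G, z ∈ K (φ n) ∧ z ∈ Q ∧ ‖z‖ = 1 := by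
      intro n
      obtain ⟨z, hz, hz0⟩ := Submodule.exists_mem_ne_zero_of_ne_bot (hφ' n)
      have hn : ‖z‖ ≠ 0 := norm_ne_zero_iff.2 hz0
      refine ⟨‖z‖⁻¹ • z, (K (φ n)).smul_mem _ hz.1, Q.smul_mem _ hz.2, ?_⟩
      rw [norm_smul, norm_inv, norm_norm, inv_mul_cancel₀ hn]
    choose z hzK hzQ hz1 using hex
    obtain ⟨z₀, -, ψ, hψ, hlim⟩ := (isCompact_closedBall (0 : G) 1).tendsto_subseq (x := z)
      (fun n => by
        rw [mem_closedBall_zero_iff]
        exact (hz1 n).le)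
    have m1 : z₀ ∈ K₀ := h (fun n => φ (ψ n)) (hφ.tendsto_atTop.comp hψ.tendsto_atTop)
      (fun n => z (ψ n)) z₀ (fun n => hzK (ψ n)) hlim
    have m2 : z₀ ∈ Q := by
      have hcl : IsClosed (Q : Set G) := Q.closed_of_finiteDimensional
      exact hcl.mem_of_tendsto hlim (Eventually.of_forall fun n => hzQ (ψ n))
    have m3 : z₀ = 0 := by
      have : z₀ ∈ K₀ ⊓ Q := ⟨m1, m2⟩
      rwa [hQ.inf_eq_bot, Submodule.mem_bot] at this
    have m4 : ‖z₀‖ = 1 := by
      have t := hlim.norm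
      have : (fun n => ‖z (ψ n)‖) = fun _ => (1 : ℝ) := by
        funext n
        exact hz1 _
      change Tendsto (fun n => ‖z (ψ n)‖) atTop _ at t
      rw [this] at t
      exact (tendsto_nhds_unique t tendsto_const_nhds)
    rw [m3, norm_zero] at m4
    exact zero_ne_one m4
  filter_upwards [hbot] with n hn
  have e1 := Submodule.finrank_add_eq_of_isCompl hQ
  have e2 := Submodule.finrank_sup_add_finrank_inf_eq (K n) Q
  rw [hn, finrank_bot] at e2
  have e3 := Submodule.finrank_le (K n ⊔ Q)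
  omega

end Vale.Agent.P207.H493.TR
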