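import Mathlib

/-!
Type rigidity, part 0: linear actions of the general linear group of a finite dimensional
real space E, together with the derived action of End E.
-/

namespace Vale.Agent.P207.H493.TR

open Module

variable {E V V' : Type*} [NormedAddCommGroup E] [NormedSpace ℝ E]
  [NormedAddCommGroup V] [NormedSpace ℝ V] [NormedAddCommGroup V'] [NormedSpace ℝ V']

/-- A linear action of the invertible operators of `E` on `V` with its derived action. -/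
structure Rp (E V : Type*) [NormedAddCommGroup E] [NormedSpace ℝ E]
    [NormedAddCommGroup V] [NormedSpace ℝ V] where
  L : (E ≃L[ℝ] E) →* (V ≃L[ℝ] V)
  ρ : (E →L[ℝ] E) →ₗ[ℝ] (V →L[ℝ] V)
  eqv : ∀ (A : E ≃L[ℝ] E) (Z : E →L[ℝ] E),
    ρ ((A : E →L[ℝ] E) ∘L Z ∘L (A.symm : E →L[ℝ] E)) =
      (L A : V →L[ℝ] V) ∘L ρ Z ∘L ((L A).symm : V →L[ℝ] V)
  bd : ∃ (C : ℝ) (k : ℕ), 0 ≤ C ∧ ∀ A : E ≃L[ℝ] E,
    ‖(L A : V →L[ℝ] V)‖ ≤ C * (1 + ‖(A : E →L[ℝ] E)‖ + ‖(A.symm : E →L[ℝ] E)‖) ^ k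
  dg : ∀ (ι : Type) [Finite ι] (b : Basis ι ℝ E) (w : ι → ℝ),
    ∃ (κ : Type) (_ : Finite κ) (c : Basis κ ℝ V) (u : κ → ℝ),
      (∀ (t : ℝ) (A : E ≃L[ℝ] E), (∀ i, A (b i) = Real.exp (t * w i) • b i) →
        ∀ j, L A (c j) = Real.exp (t * u j) • c j) ∧
      (∀ Z : E →L[ℝ] E, (∀ i, Z (b i) = w i • b i) → ∀ j, ρ Z (c j) = u j • c j)

theorem pow_le_aux {x y : ℝ} {k l : ℕ} (hx : 0 ≤ x) (hy : 0 ≤ y) :
    (1 + x + y) ^ k ≤ (1 + x + y) ^ (k + l) :=
  pow_le_pow_right₀ (by linarith) (Nat.le_add_right _ _)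

/-- The action of `E` on itself. -/
def Rp.self (E : Type*) [NormedAddCommGroup E] [NormedSpace ℝ E] : Rp E E where
  L := MonoidHom.id _
  ρ := LinearMap.id
  eqv _ _ := rfl
  bd := ⟨1, 1, zero_le_one, fun A => by
    simp only [one_mul, pow_one]
    have h := norm_nonneg (A.symm : E →L[ℝ] E)
    have h' : (MonoidHom.id (E ≃L[ℝ] E)) A = A := rfl
    rw [h']
    linarith⟩
  dg ι _ b w := ⟨ι, inferInstance, b, w, fun _ _ h => h, fun _ h => h⟩

/-- The trivial action. -/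
def Rp.triv (E V : Type*) [NormedAddCommGroup E] [NormedSpace ℝ E]
    [NormedAddCommGroup V] [NormedSpace ℝ V] [FiniteDimensional ℝ V] : Rp E V where
  L := 1
  ρ := 0
  eqv _ _ := by ext; simp
  bd := ⟨‖(ContinuousLinearMap.id ℝ V)‖, 0, norm_nonneg _, fun A => by
    simp only [pow_zero, mul_one]
    exact le_of_eq rfl⟩
  dg ι _ b w := ⟨Fin (finrank ℝ V), inferInstance, finBasis ℝ V, 0,
    fun _ _ _ j => by
      simp only [MonoidHom.one_apply, Pi.zero_apply, mul_zero, Real.exp_zero, one_smul]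
      rfl, fun _ _ j => by simp⟩

/-- The action on a product. -/
def Rp.prod (R : Rp E V) (R' : Rp E V') : Rp E (V × V') where
  L :=
    { toFun := fun A => (R.L A).prodCongr (R'.L A)
      map_one' := by
        rw [map_one, map_one]
        rfl
      map_mul' := fun A B => by
        rw [map_mul, map_mul]
        rfl }
  ρ :=
    { toFun := fun Z => (R.ρ Z).prodMap (R'.ρ Z)
      map_add' := fun Z Z' => by
        ext x <;> simp
      map_smul' := fun c Z => by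
        ext x <;> simp }
  eqv A Z := by
    ext x <;> simp [R.eqv, R'.eqv]
  bd := by
    obtain ⟨C, k, hC, h⟩ := R.bd
    obtain ⟨C', k', hC', h'⟩ := R'.bd
    refine ⟨C + C', k + k', by positivity, fun A => ?_⟩
    have hx := norm_nonneg (A : E →L[ℝ] E)
    have hy := norm_nonneg (A.symm : E →L[ℝ] E)
    have e1 := (h A).trans (mul_le_mul_of_nonneg_left (pow_le_aux (k := k) (l := k') hx hy) hC)
    have e2 := (h' A).trans (mul_le_mul_of_nonneg_left (pow_le_aux (k := k') (l := k) hx hy) hC')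
    rw [add_comm k' k] at e2
    have hp : 0 ≤ (1 + ‖(A : E →L[ℝ] E)‖ + ‖(A.symm : E →L[ℝ] E)‖) ^ (k + k') := by positivity
    refine ContinuousLinearMap.opNorm_le_bound _ (by positivity) fun x => ?_
    have hv : ‖R.L A x.1‖ ≤ ‖(R.L A : V →L[ℝ] V)‖ * ‖x‖ :=
      ((R.L A : V →L[ℝ] V).le_opNorm x.1).trans
        (mul_le_mul_of_nonneg_left (norm_fst_le x) (norm_nonneg _))
    have hv' : ‖R'.L A x.2‖ ≤ ‖(R'.L A : V' →L[ℝ] V')‖ * ‖x‖ :=
      ((R'.L A : V' →L[ℝ] V').le_opNorm x.2).trans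
        (mul_le_mul_of_nonneg_left (norm_snd_le x) (norm_nonneg _))
    have hn := norm_nonneg x
    have e3 := hv.trans (mul_le_mul_of_nonneg_right e1 hn)
    have e4 := hv'.trans (mul_le_mul_of_nonneg_right e2 hn)
    have e5 : 0 ≤ C * (1 + ‖(A : E →L[ℝ] E)‖ + ‖(A.symm : E →L[ℝ] E)‖) ^ (k + k') * ‖x‖ := by
      positivity
    have e6 : 0 ≤ C' * (1 + ‖(A : E →L[ℝ] E)‖ + ‖(A.symm : E →L[ℝ] E)‖) ^ (k + k') * ‖x‖ := by
      positivity
    change ‖(R.L A x.1, R'.L A x.2)‖ ≤ _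
    rw [Prod.norm_def]
    refine max_le ?_ ?_
    · refine e3.trans ?_
      nlinarith
    · refine e4.trans ?_
      nlinarith
  dg ι _ b w := by
    obtain ⟨κ, hκ, c, u, h1, h2⟩ := R.dg ι b w
    obtain ⟨κ', hκ', c', u', h1', h2'⟩ := R'.dg ι b w
    refine ⟨κ ⊕ κ', inferInstance, c.prod c', Sum.elim u u', fun t A hA j => ?_, fun Z hZ j => ?_⟩
    · change (R.L A ((c.prod c') j).1, R'.L A ((c.prod c') j).2) = _
      rcases j with j | j
      · have := h1 t A hA j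
        simp [this]
      · have := h1' t A hA j
        simp [this]
    · rcases j with j | j
      · have := h2 Z hZ j
        simp [this]
      · have := h2' Z hZ j
        simp [this]

theorem hom_basis {κ κ' : Type} [Finite κ] [Finite κ'] (c : Basis κ ℝ V) (c' : Basis κ' ℝ V') :
    ∃ d : Basis (κ' × κ) ℝ (V →L[ℝ] V'), ∀ p k, (p.2 = k → d p (c k) = c' p.1) ∧
      (p.2 ≠ k → d p (c k) = 0) := by
  have := Fintype.ofFinite κ
  have := Fintype.ofFinite κ'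
  have : FiniteDimensional ℝ V := Module.Finite.of_basis c
  classical
  refine ⟨(c.linearMap c').map LinearMap.toContinuousLinearMap, fun p k => ?_⟩
  have h : ((c.linearMap c').map LinearMap.toContinuousLinearMap) p (c k) =
      ((c.linearMap c') p) (c k) := by
    rw [Basis.map_apply]
    rfl
  rw [h, Basis.linearMap_apply_apply]
  refine ⟨fun hp => ?_, fun hp => ?_⟩
  · rw [if_pos hp]
  · rw [if_neg hp]

theorem clm_ext_basis {κ : Type} (c : Basis κ ℝ V) {f g : V →L[ℝ] V'}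
    (h : ∀ k, f (c k) = g (c k)) : f = g := by
  apply ContinuousLinearMap.coe_injective
  exact c.ext h

theorem hom_dg (R : Rp E V) (R' : Rp E V') (ι : Type) [Finite ι] (b : Basis ι ℝ E) (w : ι → ℝ) :
    ∃ (κ : Type) (_ : Finite κ) (c : Basis κ ℝ (V →L[ℝ] V')) (u : κ → ℝ),
      (∀ (t : ℝ) (A : E ≃L[ℝ] E), (∀ i, A (b i) = Real.exp (t * w i) • b i) →
        ∀ j, (R'.L A : V' →L[ℝ] V') ∘L (c j) ∘L ((R.L A).symm : V →L[ℝ] V) =
          Real.exp (t * u j) • c j) ∧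
      (∀ Z : E →L[ℝ] E, (∀ i, Z (b i) = w i • b i) →
        ∀ j, (R'.ρ Z) ∘L (c j) - (c j) ∘L (R.ρ Z) = u j • c j) := by
  obtain ⟨κ, hκ, c, u, h1, h2⟩ := R.dg ι b w
  obtain ⟨κ', hκ', c', u', h1', h2'⟩ := R'.dg ι b w
  obtain ⟨d, hd⟩ := hom_basis c c'
  refine ⟨κ' × κ, inferInstance, d, fun p => u' p.1 - u p.2, fun t A hA p => ?_,
    fun Z hZ p => ?_⟩
  · refine clm_ext_basis c fun k => ?_
    have hk : (R.L A).symm (c k) = Real.exp (-(t * u k)) • c k := by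
      rw [ContinuousLinearEquiv.symm_apply_eq, map_smul, h1 t A hA k, smul_smul, ← Real.exp_add]
      simp
    change R'.L A ((d p) ((R.L A).symm (c k))) = Real.exp (t * (u' p.1 - u p.2)) • (d p) (c k)
    rw [hk, map_smul, map_smul]
    by_cases hp : p.2 = k
    · rw [(hd p k).1 hp, h1' t A hA p.1, smul_smul, ← Real.exp_add, hp]
      congr 2
      ring
    · rw [(hd p k).2 hp, map_zero, smul_zero, smul_zero]
  · refine clm_ext_basis c fun k => ?_
    change R'.ρ Z ((d p) (c k)) - (d p) (R.ρ Z (c k)) = (u' p.1 - u p.2) • (d p) (c k)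
    rw [h2 Z hZ k, map_smul]
    by_cases hp : p.2 = k
    · rw [(hd p k).1 hp, h2' Z hZ p.1, hp, sub_smul]
    · rw [(hd p k).2 hp, map_zero, smul_zero, smul_zero, sub_zero]

theorem hom_bd (R : Rp E V) (R' : Rp E V') : ∃ (C : ℝ) (k : ℕ), 0 ≤ C ∧ ∀ A : E ≃L[ℝ] E,
    ∀ f : V →L[ℝ] V', ‖(R'.L A : V' →L[ℝ] V') ∘L f ∘L ((R.L A).symm : V →L[ℝ] V)‖ ≤
      C * (1 + ‖(A : E →L[ℝ] E)‖ + ‖(A.symm : E →L[ℝ] E)‖) ^ k * ‖f‖ := by
  obtain ⟨C, k, hC, h⟩ := R.bd
  obtain ⟨C', k', hC', h'⟩ := R'.bd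
  refine ⟨C * C', k + k', by positivity, fun A f => ?_⟩
  have hx := norm_nonneg (A : E →L[ℝ] E)
  have hy := norm_nonneg (A.symm : E →L[ℝ] E)
  have e1 := h A⁻¹
  have e2 := h' A
  have hinv : ((A⁻¹ : E ≃L[ℝ] E) : E →L[ℝ] E) = (A.symm : E →L[ℝ] E) := rfl
  have hinv' : (((A⁻¹ : E ≃L[ℝ] E).symm : E ≃L[ℝ] E) : E →L[ℝ] E) = (A : E →L[ℝ] E) := rfl
  rw [hinv, hinv'] at e1
  have e3 : (1 + ‖(A.symm : E →L[ℝ] E)‖ + ‖(A : E →L[ℝ] E)‖) =
    (1 + ‖(A : E →L[ℝ] E)‖ + ‖(A.symm : E →L[ℝ] E)‖) := by ring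
  rw [e3] at e1
  have hs : ((R.L A).symm : V →L[ℝ] V) = (R.L A⁻¹ : V →L[ℝ] V) := by
    rw [map_inv]
    rfl
  rw [hs]
  have hB : 0 ≤ (1 + ‖(A : E →L[ℝ] E)‖ + ‖(A.symm : E →L[ℝ] E)‖) := by positivity
  calc ‖(R'.L A : V' →L[ℝ] V') ∘L f ∘L (R.L A⁻¹ : V →L[ℝ] V)‖
      ≤ ‖(R'.L A : V' →L[ℝ] V')‖ * (‖f‖ * ‖(R.L A⁻¹ : V →L[ℝ] V)‖) :=
        (ContinuousLinearMap.opNorm_comp_le _ _).trans
          (mul_le_mul_of_nonneg_left (ContinuousLinearMap.opNorm_comp_le _ _) (norm_nonneg _))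
    _ ≤ (C' * (1 + ‖(A : E →L[ℝ] E)‖ + ‖(A.symm : E →L[ℝ] E)‖) ^ k') *
        (‖f‖ * (C * (1 + ‖(A : E →L[ℝ] E)‖ + ‖(A.symm : E →L[ℝ] E)‖) ^ k)) := by
        gcongr
    _ = _ := by
        rw [pow_add]
        ring

/-- The action on continuous linear maps `f ↦ A' f A⁻¹`. -/
noncomputable def Rp.hom (R : Rp E V) (R' : Rp E V') : Rp E (V →L[ℝ] V') where
  L :=
    { toFun := fun A => (R.L A).arrowCongr (R'.L A)
      map_one' := by
        ext f x
        simp only [map_one]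
        rfl
      map_mul' := fun A B => by
        ext f x
        simp only [map_mul]
        rfl }
  ρ :=
    { toFun := fun Z => (ContinuousLinearMap.compL ℝ V V' V' (R'.ρ Z)) -
        (ContinuousLinearMap.compL ℝ V V V').flip (R.ρ Z)
      map_add' := fun Z Z' => by
        ext f x
        simp
        abel
      map_smul' := fun c Z => by
        ext f x
        simp [smul_sub] }
  eqv A Z := by
    ext f x
    simp [R.eqv, R'.eqv]
  bd := by
    obtain ⟨C, k, hC, h⟩ := hom_bd R R'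
    refine ⟨C, k, hC, fun A => ContinuousLinearMap.opNorm_le_bound _ (by positivity) fun f => ?_⟩
    exact h A f
  dg ι _ b w := by
    obtain ⟨κ, hκ, c, u, h1, h2⟩ := hom_dg R R' ι b w
    exact ⟨κ, hκ, c, u, fun t A hA j => h1 t A hA j, fun Z hZ j => h2 Z hZ j⟩

end Vale.Agent.P207.H493.TR
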